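import Mathlib
import Vale.Agent.P347.Bridge

/-!
# P347: the dimension exponent of log-concave sampling is at most `1/4`
-/

namespace Vale.Agent.Results.P347.QuarterExponent

open Filter LogConcaveSampling

theorem result :
    (∀ ε : ℝ, 0 < ε → ∀ᶠ d : ℕ in atTop,
      QueriesSuffice (EuclideanSpace ℝ (Fin d)) (queryComplexity d) ∧
      (queryComplexity d : ℝ) ≤ (d : ℝ) ^ (1 / 4 + ε)) ∧
    (∀ d : ℕ, 0 ≤ Real.log (queryComplexity d) / Real.log d) ∧
    Filter.limsup (fun d : ℕ => Real.log (queryComplexity d) / Real.log d) atTop ≤ 1 / 4 :=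
  ⟨eventually_le, log_ratio_nonneg, limsup_le⟩

end Vale.Agent.Results.P347.QuarterExponent
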